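import Vale.Agent.P329.Elem
import Vale.Agent.P329.Final3
import Vale.Agent.P329.F.O4
import Vale.Agent.P329.T.R7
import Vale.Agent.P329.S.C4
import Vale.Agent.P329.U.Rel2

namespace Vale.Agent.Results.P329.A000000_Combined7

open Vale.Agent.P329

/-- Generalized star height at most one for (1) languages recognized by finite groups that are
abelian by elementary abelian, (2) languages recognized by finite nilpotent groups of class at
most three, (3) counting scattered subwords of length at most three modulo `q`, (4) languages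
recognized through a map of the letters into `N ∪ t N`, where `N` is an abelian normal subgroup
of a finite group and `t` is any element.  (5) A criterion for group languages: if the preimage
of `1` has star height at most one, then there are star-free `K₁, ..., Kₘ` such that every word
`u` with the same contexts as `u u` in all `Kⱼ∗` has value `1`; and if such star-free languages
exist, then all languages recognized through `φ` have star height at most one.  (6) For a simple
group that is not commutative, with `φ` onto, one star-free language suffices in (5).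
(7) Transfer from groups to monoids: if `π : M → G` is a morphism from a finite monoid to a finite
group such that every element over `1` is aperiodic, then the languages recognized through
`η : A → M` have star height at most `k` as soon as the group languages of `π ∘ η` have. -/
theorem result :
    (∀ (A G : Type) [Finite A] [Group G] [Finite G] (N : Subgroup G) [N.Normal],
      (∀ x ∈ N, ∀ y ∈ N, x * y = y * x) → ∀ p : ℕ, p.Prime →
      (∀ g h : G, g * h * g⁻¹ * h⁻¹ ∈ N) → (∀ g : G, g ^ p ∈ N) →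
      ∀ (φ : A → G) (S : Set G),
        ∃ P : GRegex A, P.sh ≤ 1 ∧ ∀ w : List A, w ∈ P.lang ↔ (w.map φ).prod ∈ S) ∧
    (∀ (A G : Type) [Finite A] [Group G] [Finite G] [Group.IsNilpotent G],
      Group.nilpotencyClass G ≤ 3 → ∀ (φ : A → G) (S : Set G),
        ∃ P : GRegex A, P.sh ≤ 1 ∧ ∀ w : List A, w ∈ P.lang ↔ (w.map φ).prod ∈ S) ∧
    (∀ (A : Type) [Finite A] [DecidableEq A] (u : List A), u.length ≤ 3 → ∀ q : ℕ, 0 < q →
      ∀ r : ℕ, ∃ P : GRegex A, P.sh ≤ 1 ∧
        ∀ w : List A, w ∈ P.lang ↔ (List.sublists w).count u ≡ r [MOD q]) ∧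
    (∀ (A G : Type) [Finite A] [Group G] [Finite G] (N : Subgroup G) [N.Normal],
      (∀ x ∈ N, ∀ y ∈ N, x * y = y * x) → ∀ (t : G) (φ : A → G),
      (∀ a : A, φ a ∈ N ∨ t⁻¹ * φ a ∈ N) → ∀ S : Set G,
        ∃ P : GRegex A, P.sh ≤ 1 ∧ ∀ w : List A, w ∈ P.lang ↔ (w.map φ).prod ∈ S) ∧
    (∀ (A G : Type) [Group G] [Finite G] (φ : A → G),
      ((∃ P : GRegex A, P.sh ≤ 1 ∧ ∀ w : List A, w ∈ P.lang ↔ (w.map φ).prod = 1) →
        ∃ Ks : List (GRegex A), (∀ K ∈ Ks, K.sh = 0) ∧ ∀ u : List A,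
          (∀ K ∈ Ks, ∀ x y : List A, x ++ u ++ y ∈ KStar.kstar K.lang ↔
            x ++ (u ++ u) ++ y ∈ KStar.kstar K.lang) → (u.map φ).prod = 1) ∧
      ((∃ Ks : List (GRegex A), (∀ K ∈ Ks, K.sh = 0) ∧ ∀ u : List A,
          (∀ K ∈ Ks, ∀ x y : List A, x ++ u ++ y ∈ KStar.kstar K.lang ↔
            x ++ (u ++ u) ++ y ∈ KStar.kstar K.lang) → (u.map φ).prod = 1) →
        ∀ S : Set G, ∃ P : GRegex A, P.sh ≤ 1 ∧
          ∀ w : List A, w ∈ P.lang ↔ (w.map φ).prod ∈ S)) ∧
    (∀ (A G : Type) [Group G] [Finite G] [IsSimpleGroup G], (∃ g h : G, g * h ≠ h * g) →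
      ∀ φ : A → G, (∀ g : G, ∃ w : List A, (w.map φ).prod = g) →
      (∃ P : GRegex A, P.sh ≤ 1 ∧ ∀ w : List A, w ∈ P.lang ↔ (w.map φ).prod = 1) →
        ∃ K : GRegex A, K.sh = 0 ∧ ∀ u : List A,
          (∀ x y : List A, x ++ u ++ y ∈ KStar.kstar K.lang ↔
            x ++ (u ++ u) ++ y ∈ KStar.kstar K.lang) → (u.map φ).prod = 1) ∧
    (∀ (A M G : Type) [Finite A] [Monoid M] [Finite M] [Group G] [Finite G] (π : M →* G),
      (∀ x : M, π x = 1 → ∃ n : ℕ, x ^ n = x ^ (n + 1)) → ∀ (η : A → M) (k : ℕ),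
      (∀ g : G, ∃ P : GRegex A, P.sh ≤ k ∧
        ∀ w : List A, w ∈ P.lang ↔ (w.map (fun a => π (η a))).prod = g) →
      ∀ T : Set M, ∃ P : GRegex A, P.sh ≤ k ∧
        ∀ w : List A, w ∈ P.lang ↔ (w.map η).prod ∈ T) := by
  refine ⟨?_, ?_, ?_, ?_, ?_, ?_, ?_⟩
  · intro A G _ _ _ N _ hN p hp hcomm hpow φ S
    obtain ⟨P, hP, hL⟩ := abelian_by_elem N hN p hp hcomm hpow φ S
    refine ⟨P, hP, fun w => ?_⟩
    rw [hL]
    exact Iff.rfl
  · intro A G _ _ _ _ hc φ S
    obtain ⟨P, hP, hL⟩ := nilpotent3_HT hc φ S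
    refine ⟨P, hP, fun w => ?_⟩
    rw [hL]
    exact Iff.rfl
  · intro A _ _ u hu q hq r
    obtain ⟨P, hP, hL⟩ := subword3_HT u hu q hq r
    refine ⟨P, hP, fun w => ?_⟩
    rw [hL]
    exact Iff.rfl
  · intro A G _ _ _ N _ hN t φ hφ S
    obtain ⟨P, hP, hL⟩ := abelian_one_step N hN t φ hφ S
    refine ⟨P, hP, fun w => ?_⟩
    rw [hL]
    exact Iff.rfl
  · intro A G _ _ φ
    refine ⟨fun h => criterion_forward φ h, fun h S => ?_⟩
    obtain ⟨P, hP, hL⟩ := criterion_backward φ h S
    refine ⟨P, hP, fun w => ?_⟩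
    rw [hL]
    exact Iff.rfl
  · intro A G _ _ _ hna φ hs h
    exact single_star hna φ hs (criterion_forward φ h)
  · intro A M G _ _ _ _ _ π hap η k hG T
    have hG' : ∀ g : G, HT k (glang (fun a => π (η a)) g) := by
      intro g
      obtain ⟨P, hP, hL⟩ := hG g
      refine ⟨P, hP, ?_⟩
      ext w
      exact hL w
    obtain ⟨P, hP, hL⟩ := rel_schutz π hap η k hG' T
    refine ⟨P, hP, fun w => ?_⟩
    rw [hL]
    exact Iff.rfl

end Vale.Agent.Results.P329.A000000_Combined7
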