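import Vale.Agent.P329.Elem
import Vale.Agent.P329.Final3

namespace Vale.Agent.Results.P329.A00_Combined

open Vale.Agent.P329

/-- Generalized star height at most one for (1) languages recognized by finite groups that are
abelian by elementary abelian, (2) languages recognized by finite nilpotent groups of class at
most three, (3) counting scattered subwords of length at most three modulo `q`. -/
theorem result :
    (∀ (A G : Type) [Finite A] [Group G] [Finite G] (N : Subgroup G) [N.Normal],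
      (∀ x ∈ N, ∀ y ∈ N, x * y = y * x) → ∀ p : ℕ, p.Prime →
      (∀ g h : G, g * h * g⁻¹ * h⁻¹ ∈ N) → (∀ g : G, g ^ p ∈ N) →
      ∀ (φ : A → G) (S : Set G),
        ∃ P : GRegex A, P.sh ≤ 1 ∧ ∀ w : List A, w ∈ P.lang ↔ (w.map φ).prod ∈ S) ∧
    (∀ (A G : Type) [Finite A] [Group G] [Finite G] [Group.IsNilpotent G],
      Group.nilpotencyClass G ≤ 3 → ∀ (φ : A → G) (S : Set G),
        ∃ P : GRegex A, P.sh ≤ 1 ∧ ∀ w : List A, w ∈ P.lang ↔ (w.map φ).prod ∈ S) ∧
    (∀ (A : Type) [Finite A] [DecidableEq A] (u : List A), u.length ≤ 3 → ∀ q : ℕ, 0 < q →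
      ∀ r : ℕ, ∃ P : GRegex A, P.sh ≤ 1 ∧
        ∀ w : List A, w ∈ P.lang ↔ (List.sublists w).count u ≡ r [MOD q]) := by
  refine ⟨?_, ?_, ?_⟩
  · intro A G _ _ _ N _ hN p hp hcomm hpow φ S
    obtain ⟨P, hP, hL⟩ := abelian_by_elem N hN p hp hcomm hpow φ S
    refine ⟨P, hP, fun w => ?_⟩
    rw [hL]
    exact Iff.rfl
  · intro A G _ _ _ _ hc φ S
    obtain ⟨P, hP, hL⟩ := nilpotent3_HT hc φ S
    refine ⟨P, hP, fun w => ?_⟩
    rw [hL]
    exact Iff.rfl
  · intro A _ _ u hu q hq r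
    obtain ⟨P, hP, hL⟩ := subword3_HT u hu q hq r
    refine ⟨P, hP, fun w => ?_⟩
    rw [hL]
    exact Iff.rfl

end Vale.Agent.Results.P329.A00_Combined
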