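import Vale.Agent.P329.Elem

namespace Vale.Agent.Results.P329.A0_AbelianByElementary

open Vale.Agent.P329

/-- Every language recognized by a finite group having an abelian normal subgroup whose quotient
is an elementary abelian `p`-group (for an arbitrary prime `p`) has generalized star height at
most one. -/
theorem result {A G : Type} [Finite A] [Group G] [Finite G] (N : Subgroup G) [N.Normal]
    (hN : ∀ x ∈ N, ∀ y ∈ N, x * y = y * x) (p : ℕ) (hp : p.Prime)
    (hcomm : ∀ g h : G, g * h * g⁻¹ * h⁻¹ ∈ N) (hpow : ∀ g : G, g ^ p ∈ N)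
    (φ : A → G) (S : Set G) :
    ∃ P : GRegex A, P.sh ≤ 1 ∧ ∀ w : List A, w ∈ P.lang ↔ (w.map φ).prod ∈ S := by
  obtain ⟨P, hP, hL⟩ := abelian_by_elem N hN p hp hcomm hpow φ S
  refine ⟨P, hP, fun w => ?_⟩
  rw [hL]
  exact Iff.rfl

end Vale.Agent.Results.P329.A0_AbelianByElementary
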