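import Vale.Agent.P329.Final3

namespace Vale.Agent.Results.P329.A2_SubwordCount3

open Vale.Agent.P329

/-- Counting modulo `q` the occurrences of a word `u` of length at most three as a scattered
subword gives languages of generalized star height at most one. -/
theorem result {A : Type} [Finite A] [DecidableEq A] (u : List A) (hu : u.length ≤ 3) (q : ℕ)
    (hq : 0 < q) (r : ℕ) :
    ∃ P : GRegex A, P.sh ≤ 1 ∧
      ∀ w : List A, w ∈ P.lang ↔ (List.sublists w).count u ≡ r [MOD q] := by
  obtain ⟨P, hP, hL⟩ := subword3_HT u hu q hq r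
  refine ⟨P, hP, fun w => ?_⟩
  rw [hL]
  exact Iff.rfl

end Vale.Agent.Results.P329.A2_SubwordCount3
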