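import Vale.Agent.P329.Prime

namespace Vale.Agent.Results.P329.AbelianByPrime

open Vale.Agent.P329

/-- Every language recognized by a finite group having an abelian normal subgroup of prime index
has generalized star height at most one. -/
theorem result {A G : Type} [Finite A] [Group G] [Finite G] (N : Subgroup G) [N.Normal]
    (hN : ∀ x ∈ N, ∀ y ∈ N, x * y = y * x) (hp : N.index.Prime) (φ : A → G) (S : Set G) :
    ∃ P : GRegex A, P.sh ≤ 1 ∧ ∀ w : List A, w ∈ P.lang ↔ (w.map φ).prod ∈ S := by
  obtain ⟨P, hP, hL⟩ := abelian_by_prime N hN hp φ S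
  refine ⟨P, hP, fun w => ?_⟩
  rw [hL]
  exact Iff.rfl

end Vale.Agent.Results.P329.AbelianByPrime
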